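import Vale.Agent.P088.Bdl.B11
import Vale.Agent.P088.Bdl.B12
import Mathlib.Geometry.Manifold.PartitionOfUnity

/-!
# P088, solvability of the Dirichlet problem: assembly

A section which is smooth and a solution in the interior of every chart and which extends smoothly
to the boundary, with the boundary values `f`, gives a harmonic extension of `f`.
-/

open Bundle Manifold MeasureTheory Set Filter Topology
open scoped ContDiff

noncomputable section

namespace Vale.Agent.P088.H772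

open Vale.Agent.P088 Vale.Agent.P088.EYM

universe u

set_option linter.unusedSectionVars false

section loc

variable {n N : ℕ} [NeZero n]

theorem nab_congr {D : Set (E n)} (hD : RelOpen D) (L : LD n N) {c d : E n → Fib N}
    (h : EqOn c d D) {x : E n} (hx : x ∈ D) (j : Fin n) : nab L j c x = nab L j d x := by
  unfold nab
  rw [hD.pd_congr h hx, h hx]

theorem flux_congr {D : Set (E n)} (hD : RelOpen D) (L : LD n N) {c d : E n → Fib N}
    (h : EqOn c d D) {x : E n} (hx : x ∈ D) (j : Fin n) : flux L j c x = flux L j d x := by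
  unfold flux
  exact Finset.sum_congr rfl fun k _ => by rw [nab_congr hD L h hx]

theorem Lop_congr {D : Set (E n)} (hD : RelOpen D) (L : LD n N) {c d : E n → Fib N}
    (h : EqOn c d D) {x : E n} (hx : x ∈ D) : Lop L c x = Lop L d x := by
  unfold Lop
  refine Finset.sum_congr rfl fun j _ => ?_
  rw [hD.pd_congr (fun y hy => flux_congr hD L h hy j) hx, flux_congr hD L h hx j]

/-- A smooth solution in the interior is a solution up to the boundary. -/
theorem Lop_zero {D : Set (E n)} (hD : RelOpen D) {L : LD n N} (hL : L.Ok D) {c : E n → Fib N}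
    (hc : ContDiffOn ℝ ∞ c D) (h : ∀ x ∈ D, 0 < x 0 → Lop L c x = 0) :
    ∀ x ∈ D, Lop L c x = 0 := by
  intro y hy
  have hcl := CHarm_mem_closure hD hy
  have hne : (𝓝[D ∩ {y : E n | 0 < y 0}] y).NeBot := mem_closure_iff_nhdsWithin_neBot.1 hcl
  have h1 : Tendsto (Lop L c) (𝓝[D ∩ {y : E n | 0 < y 0}] y) (𝓝 (Lop L c y)) :=
    (((CHarm_Lop_smooth hD hL hc).continuousOn y hy).mono inter_subset_left)
  have h2 : Tendsto (Lop L c) (𝓝[D ∩ {y : E n | 0 < y 0}] y) (𝓝 0) := by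
    refine tendsto_const_nhds.congr' ?_
    filter_upwards [self_mem_nhdsWithin] with x hx
    exact (h x hx.1 hx.2).symm
  exact tendsto_nhds_unique h1 h2

/-- The weak equation in a half ball. -/
theorem en_zero {z : E n} {r : ℝ} (hr : 0 < r) {L : LD n N} (hL : L.Ok (HB z r))
    {c d : E n → Fib N} (hc : ContDiffOn ℝ ∞ c (HB z r))
    (hLop : ∀ x ∈ HB z r, 0 < x 0 → Lop L c x = 0) (hd : ContDiffOn ℝ ∞ d (HB z r))
    {r' : ℝ} (hr' : r' < r) (hd0 : ∀ x ∈ HB z r, x ∉ Metric.ball z r' → d x = 0)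
    (hflat : ∀ x ∈ HB z r, x 0 = 0 → d x = 0) : En L (HB z r) c d = 0 := by
  have hD := AGreen_rel_HB z r
  have hz := Lop_zero hD hL hc hLop
  set s : ℝ := max r' (r / 2) with hs
  have hsr : s < r := max_lt hr' (by linarith)
  have hs0 : 0 < s := lt_of_lt_of_le (by linarith) (le_max_right _ _)
  set r1 : ℝ := (s + r) / 2 with hr1
  set r2 : ℝ := (r1 + r) / 2 with hr2
  have h1 : s < r1 := by rw [hr1]; linarith
  have h2 : r1 < r2 := by rw [hr2, hr1]; linarith
  have h3 : r2 < r := by rw [hr2, hr1]; linarith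
  let χ : ContDiffBump z := ⟨r1, r2, by linarith, h2⟩
  have hχ1 : ∀ x ∈ Metric.closedBall z r1, χ x = 1 := fun x hx => χ.one_of_mem_closedBall hx
  have hχ0 : ∀ x, x ∉ Metric.ball z r2 → χ x = 0 := fun x hx =>
    χ.zero_of_le_dist (by
      rw [Metric.mem_ball, not_lt] at hx
      exact hx)
  have hD1 : RelOpen (Metric.ball z r1 ∩ HB z r) := hD.univ_inter Metric.isOpen_ball
  have hD2 : RelOpen ((Metric.closedBall z s)ᶜ ∩ HB z r) :=
    hD.univ_inter Metric.isClosed_closedBall.isOpen_compl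
  have hc' : ContDiffOn ℝ 2 (fun x => χ x • c x) (HB z r) :=
    (χ.contDiff.contDiffOn).smul (hc.of_le (by
      exact_mod_cast (le_top : ((2 : ℕ∞)) ≤ ⊤)))
  have hd1 : ContDiffOn ℝ 1 d (HB z r) := hd.of_le (by simp only [WithTop.one_le_coe, le_top])
  have hgreen := aGreen n N L z r hr hL (fun x => χ x • c x) d hc' hd1
    ⟨r2, h3, fun x _ hx => by rw [hχ0 x hx, zero_smul]⟩ hflat
  have heq : EqOn (fun x => χ x • c x) c (Metric.ball z r1 ∩ HB z r) := fun x hx => by
    show χ x • c x = c x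
    rw [hχ1 x (Metric.ball_subset_closedBall hx.1), one_smul]
  have hd2 : EqOn d (fun _ => 0) ((Metric.closedBall z s)ᶜ ∩ HB z r) := fun x hx =>
    hd0 x hx.2 fun hb => hx.1 (Metric.ball_subset_closedBall
      (Metric.ball_subset_ball (le_max_left _ _) hb))
  have hcase : ∀ x ∈ HB z r, x ∈ Metric.ball z r1 ∩ HB z r ∨
      x ∈ (Metric.closedBall z s)ᶜ ∩ HB z r := by
    intro x hx
    by_cases h : x ∈ Metric.ball z r1
    · exact Or.inl ⟨h, hx⟩
    · refine Or.inr ⟨fun hcb => h ?_, hx⟩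
      exact Metric.mem_ball.2 (lt_of_le_of_lt (Metric.mem_closedBall.1 hcb) h1)
  have hE : En L (HB z r) c d = En L (HB z r) (fun x => χ x • c x) d := by
    unfold En
    refine setIntegral_congr_fun (AGreen_meas_HB z r) fun x hx => ?_
    show ed L c d x = ed L (fun x => χ x • c x) d x
    unfold ed
    refine Finset.sum_congr rfl fun j _ => Finset.sum_congr rfl fun k _ => ?_
    rcases hcase x hx with h | h
    · rw [nab_congr hD1 L heq h j]
    · rw [nab_congr hD2 L hd2 h k]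
      have h0 : nab L k (fun _ => (0 : Fib N)) x = 0 := by
        unfold nab
        rw [pd_const, map_zero, add_zero]
      rw [h0, map_zero, inner_zero_right, inner_zero_right]
  rw [hE, hgreen]
  rw [neg_eq_zero]
  have hI : ∀ x ∈ HB z r, (inner ℂ (Lop L (fun x => χ x • c x) x) (L.h x (d x)) : ℂ) = 0 := by
    intro x hx
    rcases hcase x hx with h | h
    · rw [Lop_congr hD1 L heq h, hz x hx, inner_zero_left]
    · rw [show d x = 0 from hd2 h, map_zero, inner_zero_right]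
  rw [setIntegral_congr_fun (AGreen_meas_HB z r) hI]
  simp

end loc

section mani

variable {n N : ℕ} [NeZero n] {M : Type u} [TopologicalSpace M]
  [ChartedSpace (EuclideanHalfSpace n) M] [IsManifold (𝓡∂ n) ∞ M] [T2Space M] [CompactSpace M]
  [MeasurableSpace M] [BorelSpace M]

/-- The weak equation for a test section supported in a half ball of a chart. -/
theorem energy_zero_loc (P : One n N M) {u ψ : M → Fib N} (hu : SmS n u)
    (hsol : ∀ p, ∀ y ∈ tg n p, 0 < y 0 → Lop (P.loc p) (lu (𝓡∂ n) p u) y = 0)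
    (hψ : SmS n ψ) (hψ0 : ∀ x ∈ (𝓡∂ n).boundary M, ψ x = 0) (p : M) {z : E n} {r r' : ℝ}
    (hr : 0 < r) (hr' : r' < r) (hz : HB z r ⊆ tg n p)
    (hsupp : tsupport ψ ⊆ (xc n p).symm '' HB z r') : P.E u ψ = 0 := by
  obtain ⟨hRel, hOk, hbd, hsm⟩ := cLoc n N M
  have hD := AGreen_rel_HB z r
  have hsub : HB z r' ⊆ HB z r :=
    inter_subset_inter_left _ (Metric.ball_subset_ball hr'.le)
  have h1 := ((cEnergy cInt) n N M P p (HB z r) hD hz).1 u ψ hu hψ
    (Or.inr (hsupp.trans (image_mono hsub)))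
  rw [h1]
  refine en_zero hr (CHarm_ok_mono (hOk P p) hz) ((hsm u hu p).mono hz)
    (fun x hx hx0 => hsol p x (hz hx) hx0) ((hsm ψ hψ p).mono hz) hr' ?_ ?_
  · intro x hx hxb
    show ψ ((xc n p).symm x) = 0
    refine image_eq_zero_of_notMem_tsupport fun hmem => hxb ?_
    obtain ⟨y, hy, hyx⟩ := hsupp hmem
    have h2 : y = x := by
      have h3 := congrArg (xc n p) hyx
      rwa [(xc n p).right_inv (hz (hsub hy)), (xc n p).right_inv (hz hx)] at h3
    exact h2 ▸ hy.1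
  · intro x hx hx0
    show ψ ((xc n p).symm x) = 0
    refine hψ0 _ ((hbd p _ ((xc n p).map_target (hz hx))).2 ?_)
    rw [(xc n p).right_inv (hz hx)]
    exact hx0

/-- Half balls around the centre of a chart. -/
theorem exists_HB (x : M) : ∃ r : ℝ, 0 < r ∧ HB (xc n x x) r ⊆ tg n x := by
  obtain ⟨O, hO, hD⟩ := cLoc_relOpen (n := n) x
  have h1 : xc n x x ∈ tg n x := mem_extChartAt_target x
  rw [hD] at h1
  obtain ⟨r, hr, hb⟩ := Metric.isOpen_iff.1 hO _ h1.1
  refine ⟨r, hr, ?_⟩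
  rw [hD]
  exact inter_subset_inter_left _ hb

/-- The weak equation. -/
theorem energy_zero (P : One n N M) {u : M → Fib N} (hu : SmS n u)
    (hsol : ∀ p, ∀ y ∈ tg n p, 0 < y 0 → Lop (P.loc p) (lu (𝓡∂ n) p u) y = 0)
    {φ : M → Fib N} (hφ : SmS n φ) (hφ0 : ∀ x ∈ (𝓡∂ n).boundary M, φ x = 0) : P.E u φ = 0 := by
  classical
  obtain ⟨f1, f2, f3, f4, f5⟩ := cForm cInt n N M P
  choose r hr hrt using fun x : M => exists_HB (n := n) x
  set U : M → Set M := fun x => (xc n x).source ∩ (xc n x) ⁻¹' Metric.ball (xc n x x) (r x / 2)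
    with hU
  have hUo : ∀ x, IsOpen (U x) := fun x =>
    (continuousOn_extChartAt x).isOpen_inter_preimage (isOpen_extChartAt_source x)
      Metric.isOpen_ball
  have hUm : ∀ x, x ∈ U x := fun x =>
    ⟨mem_extChartAt_source x, Metric.mem_ball_self (half_pos (hr x))⟩
  obtain ⟨t, ht⟩ := isCompact_univ.elim_finite_subcover U hUo
    (fun x _ => mem_iUnion.2 ⟨x, hUm x⟩)
  obtain ⟨ρ, hρ⟩ := SmoothPartitionOfUnity.exists_isSubordinate (𝓡∂ n) (s := (univ : Set M))
    isClosed_univ (fun i : t => U i) (fun i => hUo i) (fun x hx => by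
      obtain ⟨i, hi, hxi⟩ := mem_iUnion₂.1 (ht hx)
      exact mem_iUnion.2 ⟨⟨i, hi⟩, hxi⟩)
  have hsm : ∀ i : t, SmS n (fun x => ρ i x • φ x) := fun i =>
    ContMDiff.smul (ρ i).contMDiff hφ
  have hsum : φ = ∑ i : t, (fun x => ρ i x • φ x) := by
    funext x
    rw [Finset.sum_apply, ← Finset.sum_smul]
    have h1 := ρ.sum_eq_one (mem_univ x)
    rw [finsum_eq_sum_of_fintype] at h1
    rw [h1, one_smul]
  have hadd : ∀ s : Finset t, SmS n (∑ i ∈ s, (fun x => ρ i x • φ x)) ∧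
      P.E u (∑ i ∈ s, (fun x => ρ i x • φ x)) = ∑ i ∈ s, P.E u (fun x => ρ i x • φ x) := by
    intro s
    induction s using Finset.induction_on with
    | empty =>
      refine ⟨by simpa using crungea_zero, ?_⟩
      have h1 := f2 0 u 0 hu crungea_zero
      simpa using h1
    | insert a s ha ih =>
      rw [Finset.sum_insert ha, Finset.sum_insert ha]
      exact ⟨crungea_add (hsm a) ih.1, by rw [f1 _ _ _ hu (hsm a) ih.1, ih.2]⟩
  rw [hsum, (hadd Finset.univ).2]
  refine Finset.sum_eq_zero fun i _ => ?_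
  refine energy_zero_loc P hu hsol (hsm i) (fun x hx => by rw [hφ0 x hx, smul_zero]) i.1
    (z := xc n i.1 i.1) (hr i.1) (r' := r i.1 / 2) (by linarith [hr i.1]) (hrt i.1) ?_
  have h1 : tsupport (fun x => ρ i x • φ x) ⊆ tsupport (ρ i) :=
    closure_mono fun x hx h0 => hx (by
      show ρ i x • φ x = 0
      rw [h0, zero_smul])
  refine h1.trans ((hρ i).trans ?_)
  rintro x ⟨hx1, hx2⟩
  refine ⟨xc n i.1 x, ⟨hx2, ?_⟩, (xc n i.1).left_inv hx1⟩
  exact (cLoc_relOpen (n := n) i.1).subset ((xc n i.1).map_source hx1)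

theorem smS_of_charts {u : M → Fib N} (h : ∀ x : M, ∃ r > 0, HB (xc n x x) r ⊆ tg n x ∧
    ContDiffOn ℝ ∞ (lu (𝓡∂ n) x u) (HB (xc n x x) r)) : SmS n u := by
  intro x
  obtain ⟨r, hr, hrt, hc⟩ := h x
  have hHs : ∀ y ∈ (xc n x).source, xc n x y ∈ Hs n := fun y hy =>
    (cLoc_relOpen (n := n) x).subset ((xc n x).map_source hy)
  set S : Set M := (xc n x).source ∩ (xc n x) ⁻¹' Metric.ball (xc n x x) r with hS
  have hSo : IsOpen S := (continuousOn_extChartAt x).isOpen_inter_preimage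
    (isOpen_extChartAt_source x) Metric.isOpen_ball
  have hxS : x ∈ S := ⟨mem_extChartAt_source x, Metric.mem_ball_self hr⟩
  have h1 : ContMDiffOn (𝓡∂ n) 𝓘(ℝ, Fib N) ∞ (fun y => lu (𝓡∂ n) x u (xc n x y)) S := by
    have h2 : ContMDiffOn (𝓡∂ n) 𝓘(ℝ, E n) ∞ (xc n x) S := by
      refine (contMDiffOn_extChartAt (n := ∞) (x := x)).mono ?_
      rw [← extChartAt_source (I := 𝓡∂ n)]
      exact inter_subset_left
    exact (contMDiffOn_iff_contDiffOn.2 hc).comp h2 fun y hy => ⟨hy.2, hHs y hy.1⟩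
  refine (h1.contMDiffAt (hSo.mem_nhds hxS)).congr_of_eventuallyEq ?_
  filter_upwards [hSo.mem_nhds hxS] with y hy
  show u y = u ((xc n x).symm (xc n x y))
  rw [(xc n x).left_inv hy.1]

/-- **Assembly.** -/
theorem asm (P : One n N M) (f U : M → Fib N)
    (h1 : ∀ p, ContDiffOn ℝ ∞ (lu (𝓡∂ n) p U) (tg n p ∩ {y | 0 < y 0}))
    (h2 : ∀ p, ∀ y ∈ tg n p, 0 < y 0 → Lop (P.loc p) (lu (𝓡∂ n) p U) y = 0)
    (h3 : ∀ p ∈ (𝓡∂ n).boundary M, ∃ r > 0, HB (xc n p p) r ⊆ tg n p ∧ ∃ w : E n → Fib N,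
      ContDiffOn ℝ ∞ w (HB (xc n p p) r) ∧
      (∀ y ∈ HB (xc n p p) r, 0 < y 0 → w y = lu (𝓡∂ n) p U y) ∧
      ∀ y ∈ HB (xc n p p) r, y 0 = 0 → w y = lu (𝓡∂ n) p f y) :
    ∃ u, P.Harm f u ∧ ∀ x, x ∉ (𝓡∂ n).boundary M → u x = U x := by
  classical
  obtain ⟨hRel, hOk, hbd, hsm⟩ := cLoc n N M
  set u : M → Fib N := fun x => if x ∈ (𝓡∂ n).boundary M then f x else U x with hu
  have hu1 : ∀ x ∈ (𝓡∂ n).boundary M, u x = f x := fun x hx => if_pos hx
  have hu2 : ∀ x, x ∉ (𝓡∂ n).boundary M → u x = U x := fun x hx => if_neg hx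
  have hlu1 : ∀ p, ∀ y ∈ tg n p, 0 < y 0 → lu (𝓡∂ n) p u y = lu (𝓡∂ n) p U y := by
    intro p y hy hy0
    refine hu2 _ fun hb => ?_
    have h := (hbd p _ ((xc n p).map_target hy)).1 hb
    rw [(xc n p).right_inv hy] at h
    exact absurd h (ne_of_gt hy0)
  have hlu2 : ∀ p, ∀ y ∈ tg n p, y 0 = 0 → lu (𝓡∂ n) p u y = lu (𝓡∂ n) p f y := by
    intro p y hy hy0
    refine hu1 _ ((hbd p _ ((xc n p).map_target hy)).2 ?_)
    rw [(xc n p).right_inv hy]
    exact hy0
  have hus : SmS n u := by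
    refine smS_of_charts fun x => ?_
    have hx : xc n x x ∈ tg n x := mem_extChartAt_target x
    have hx0 : (0 : ℝ) ≤ (xc n x x) 0 := (hRel x).subset hx
    rcases hx0.eq_or_lt with h0 | h0
    · obtain ⟨r, hr, hrt, w, hw1, hw2, hw3⟩ := h3 x
        ((hbd x x (mem_extChartAt_source x)).2 h0.symm)
      refine ⟨r, hr, hrt, hw1.congr fun y hy => ?_⟩
      have hy0 : (0 : ℝ) ≤ y 0 := hy.2
      rcases hy0.eq_or_lt with h | h
      · rw [hlu2 x y (hrt hy) h.symm, hw3 y hy h.symm]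
      · rw [hlu1 x y (hrt hy) h, hw2 y hy h]
    · have hDo : IsOpen (tg n x ∩ {y : E n | 0 < y 0}) := CHarm_pos_open (hRel x)
      obtain ⟨r, hr, hb⟩ := Metric.isOpen_iff.1 hDo _ ⟨hx, h0⟩
      refine ⟨r, hr, fun y hy => (hb hy.1).1, ?_⟩
      have h4 : ContDiffOn ℝ ∞ (lu (𝓡∂ n) x U) (HB (xc n x x) r) :=
        (h1 x).mono fun y hy => hb hy.1
      exact h4.congr fun y hy => hlu1 x y (hb hy.1).1 (hb hy.1).2
  have hsol : ∀ p, ∀ y ∈ tg n p, 0 < y 0 → Lop (P.loc p) (lu (𝓡∂ n) p u) y = 0 := by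
    intro p y hy hy0
    have hDo : IsOpen (tg n p ∩ {y : E n | 0 < y 0}) := CHarm_pos_open (hRel p)
    have hDr : RelOpen (tg n p ∩ {y : E n | 0 < y 0}) :=
      CHarm_relOpen_of_open hDo (inter_subset_left.trans (hRel p).subset)
    rw [Lop_congr hDr (P.loc p) (fun x hx => hlu1 p x hx.1 hx.2) ⟨hy, hy0⟩]
    exact h2 p y hy hy0
  exact ⟨u, ⟨hus, hu1, fun φ hφ hφ0 => energy_zero P hus hsol hφ hφ0⟩, hu2⟩

end mani

end Vale.Agent.P088.H772
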