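import Vale.Agent.P088.R2.H238.DM.Spec
import Vale.Agent.P088.R2.H673.DM.Ch
import Vale.Agent.P088.R2.H772.DM.Asm

/-!
# P088, SOLV: the row GLU (local limits define a function on `M`)
-/

open Manifold MeasureTheory Set Filter Topology
open scoped ContDiff ENNReal

noncomputable section

namespace Vale.Agent.P088.H772

open Vale.Agent.P088 Vale.Agent.P088.EYM Vale.Agent.P088.DM

universe u

set_option linter.unusedSectionVars false

theorem bo_open {n : ℕ} [NeZero n] (z : E n) (r : ℝ) : IsOpen (Bo z r) := by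
  have h : Bo z r = (⋂ i, {x : E n | |x i - z i| < r}) ∩ {x | 0 < x 0} := by
    ext x
    simp [Bo]
  rw [h]
  refine (isOpen_iInter_of_finite fun i => ?_).inter
    (isOpen_lt continuous_const (continuous_coord 0))
  exact isOpen_lt ((continuous_coord i).sub continuous_const).abs continuous_const

theorem bo_sub_bx {n : ℕ} [NeZero n] (z : E n) (r : ℝ) : Bo z r ⊆ Bx z r := fun _ hx =>
  ⟨hx.1, le_of_lt hx.2⟩

theorem bo_self {n : ℕ} [NeZero n] {z : E n} {r : ℝ} (hr : 0 < r) (hz : 0 < z 0) :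
    z ∈ Bo z r := ⟨fun i => by simpa using hr, hz⟩

theorem isCompact_closure_bx {n : ℕ} [NeZero n] (z : E n) (r : ℝ) :
    IsCompact (closure (Bx z r)) := by
  refine Metric.isCompact_of_isClosed_isBounded isClosed_closure (Bornology.IsBounded.closure ?_)
  refine (Metric.isBounded_closedBall (x := z) (r := √(∑ _i : Fin n, r ^ 2))).subset
    fun x hx => ?_
  rw [Metric.mem_closedBall, dist_eq_norm, EuclideanSpace.norm_eq]
  refine Real.sqrt_le_sqrt (Finset.sum_le_sum fun i _ => ?_)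
  have h := (hx.1 i).le
  rw [Real.norm_eq_abs]
  exact pow_le_pow_left₀ (abs_nonneg _) (by simpa using h) 2

section mani

variable {n N : ℕ} [NeZero n] {M : Type u} [TopologicalSpace M]
  [ChartedSpace (EuclideanHalfSpace n) M] [IsManifold (𝓡∂ n) ∞ M] [T2Space M] [CompactSpace M]
  [MeasurableSpace M] [BorelSpace M]

theorem image_open (p : M) {D : Set (E n)} (hD : IsOpen D) (hDt : D ⊆ tg n p) :
    IsOpen ((xc n p).symm '' D) := by
  have h : (xc n p).symm '' D = (xc n p).source ∩ (xc n p) ⁻¹' D := by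
    ext x
    constructor
    · rintro ⟨y, hy, rfl⟩
      exact ⟨(xc n p).map_target (hDt hy), by
        rw [mem_preimage, (xc n p).right_inv (hDt hy)]
        exact hy⟩
    · rintro ⟨h1, h2⟩
      exact ⟨_, h2, (xc n p).left_inv h1⟩
  rw [h]
  exact (continuousOn_extChartAt p).isOpen_inter_preimage (isOpen_extChartAt_source p) hD

theorem cont_chart (p : M) {D : Set (E n)} (hDt : D ⊆ tg n p) {v : E n → Fib N}
    (hv : ContinuousOn v D) : ContinuousOn (fun x => v (xc n p x)) ((xc n p).symm '' D) := by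
  refine hv.comp ((continuousOn_extChartAt p).mono ?_) ?_
  · rintro x ⟨y, hy, rfl⟩
    exact (xc n p).map_target (hDt hy)
  · rintro x ⟨y, hy, rfl⟩
    rw [(xc n p).right_inv (hDt hy)]
    exact hy

/-- the square integral on the image of a set of coordinates -/
theorem lint_chart (P : One n N M) (p : M) {D : Set (E n)} (hD : IsOpen D) (hDt : D ⊆ tg n p)
    {S : ℝ} (hS : ∀ y ∈ D, dens P.g p y ≤ S) {h : M → Fib N}
    (hh : ContinuousOn h ((xc n p).symm '' D)) :
    ∫⁻ x in (xc n p).symm '' D, ‖h x‖ₑ ^ 2 ∂P.μ ≤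
      ENNReal.ofReal S * ∫⁻ y in D, ‖h ((xc n p).symm y)‖ₑ ^ 2 := by
  have hA := image_open p hD hDt
  have hvr : AEMeasurable (fun x => ‖h x‖ₑ ^ 2) (P.μ.restrict ((xc n p).symm '' D)) :=
    ((hh.aestronglyMeasurable hA.measurableSet).enorm).pow_const 2
  rw [cInt_restrict P.hμ p hD.measurableSet hDt] at hvr ⊢
  have hcm := (H673.chart_ae p hD.measurableSet hDt).mono_ac
    (withDensity_absolutelyContinuous (volume.restrict D)
      (fun y => ENNReal.ofReal (dens P.g p y)))
  rw [lintegral_map' hvr hcm]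
  have hc2 : ContinuousOn (fun y => h ((xc n p).symm y)) D :=
    hh.comp ((continuousOn_extChartAt_symm p).mono hDt) fun y hy => mem_image_of_mem _ hy
  rw [lintegral_withDensity_eq_lintegral_mul₀ (H673.dens_ae P p hD.measurableSet hDt)
    (((hc2.aestronglyMeasurable hD.measurableSet).enorm).pow_const 2)]
  rw [← lintegral_const_mul' _ _ ENNReal.ofReal_ne_top]
  refine lintegral_mono_ae ((ae_restrict_iff' hD.measurableSet).2
    (Eventually.of_forall fun y hy => ?_))
  show ENNReal.ofReal (dens P.g p y) * ‖h ((xc n p).symm y)‖ₑ ^ 2 ≤ _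
  have := ENNReal.ofReal_le_ofReal (hS y hy)
  gcongr

theorem tendsto_chart (P : One n N M) {f : M → Fib N} {u : ℕ → M → Fib N}
    (hu : ∀ k, SmS n (u k)) {p : M} {z : E n} {r : ℝ} {v : E n → Fib N}
    (hcl : closure (Bx z r) ⊆ tg n p) (h : LocLim P f u p z r v) :
    Tendsto (fun k => ∫⁻ x in (xc n p).symm '' Bo z r, ‖u k x - v (xc n p x)‖ₑ ^ 2 ∂P.μ)
      atTop (𝓝 0) := by
  have hDt : Bo z r ⊆ tg n p := ((bo_sub_bx z r).trans subset_closure).trans hcl
  obtain ⟨S, hS⟩ : ∃ S : ℝ, ∀ y ∈ closure (Bx z r), dens P.g p y ≤ S := by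
    obtain ⟨S, hS⟩ := ((isCompact_closure_bx z r).image_of_continuousOn
      ((contDiffOn_dens P.g p).continuousOn.mono hcl)).bddAbove
    exact ⟨S, fun y hy => hS (mem_image_of_mem _ hy)⟩
  have hv : ContinuousOn v (Bo z r) := (h.smooth.continuousOn).mono (bo_sub_bx z r)
  have h1 : ∀ k, ∫⁻ x in (xc n p).symm '' Bo z r, ‖u k x - v (xc n p x)‖ₑ ^ 2 ∂P.μ ≤
      ENNReal.ofReal S * ENNReal.ofReal (∫ y in Bo z r, ‖lu (𝓡∂ n) p (u k) y - v y‖ ^ 2) := by
    intro k
    refine (lint_chart P p (bo_open z r) hDt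
      (fun y hy => hS y (subset_closure (bo_sub_bx z r hy)))
      ((hu k).continuous.continuousOn.sub (cont_chart p hDt hv))).trans ?_
    rw [← H673.lint_sq (h.int k)]
    refine mul_le_mul_right ?_ _
    refine lintegral_mono_ae ((ae_restrict_iff' (bo_open z r).measurableSet).2
      (Eventually.of_forall fun y hy => ?_))
    show ‖u k ((xc n p).symm y) - v (xc n p ((xc n p).symm y))‖ₑ ^ 2 ≤
      ‖u k ((xc n p).symm y) - v y‖ₑ ^ 2
    rw [(xc n p).right_inv (hDt hy)]
  refine tendsto_of_tendsto_of_tendsto_of_le_of_le tendsto_const_nhds ?_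
    (fun _ => zero_le) h1
  have h2 := (ENNReal.continuous_ofReal.tendsto 0).comp h.lim
  have h3 := ENNReal.Tendsto.const_mul (a := ENNReal.ofReal S) h2 (Or.inr ENNReal.ofReal_ne_top)
  simpa using h3

/-- two local limits agree -/
theorem agree (P : One n N M) {f : M → Fib N} {u : ℕ → M → Fib N}
    (hu : ∀ k, SmS n (u k)) {p q : M} {z z' : E n} {r r' : ℝ} {v v' : E n → Fib N}
    (hcl : closure (Bx z r) ⊆ tg n p) (h : LocLim P f u p z r v)
    (hcl' : closure (Bx z' r') ⊆ tg n q) (h' : LocLim P f u q z' r' v') {x : M}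
    (hx : x ∈ (xc n p).symm '' Bo z r) (hx' : x ∈ (xc n q).symm '' Bo z' r') :
    v (xc n p x) = v' (xc n q x) := by
  have hDt : Bo z r ⊆ tg n p := ((bo_sub_bx z r).trans subset_closure).trans hcl
  have hDt' : Bo z' r' ⊆ tg n q := ((bo_sub_bx z' r').trans subset_closure).trans hcl'
  set O : Set M := (xc n p).symm '' Bo z r ∩ (xc n q).symm '' Bo z' r' with hO
  have hOo : IsOpen O := (image_open p (bo_open z r) hDt).inter (image_open q (bo_open z' r') hDt')
  have ha : ContinuousOn (fun m => v (xc n p m)) O :=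
    (cont_chart p hDt ((h.smooth.continuousOn).mono (bo_sub_bx z r))).mono inter_subset_left
  have hb : ContinuousOn (fun m => v' (xc n q m)) O :=
    (cont_chart q hDt' ((h'.smooth.continuousOn).mono (bo_sub_bx z' r'))).mono inter_subset_right
  have hab : ContinuousOn (fun m => v (xc n p m) - v' (xc n q m)) O := ha.sub hb
  have h0 : ∫⁻ m in O, ‖v (xc n p m) - v' (xc n q m)‖ₑ ^ 2 ∂P.μ = 0 := by
    have h1 : ∀ k, ∫⁻ m in O, ‖v (xc n p m) - v' (xc n q m)‖ₑ ^ 2 ∂P.μ ≤
        4 * (∫⁻ x in (xc n p).symm '' Bo z r, ‖u k x - v (xc n p x)‖ₑ ^ 2 ∂P.μ +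
          ∫⁻ x in (xc n q).symm '' Bo z' r', ‖u k x - v' (xc n q x)‖ₑ ^ 2 ∂P.μ) := by
      intro k
      have h2 : ∀ m, ‖v (xc n p m) - v' (xc n q m)‖ₑ ^ 2 ≤
          4 * (‖u k m - v (xc n p m)‖ₑ ^ 2 + ‖u k m - v' (xc n q m)‖ₑ ^ 2) := by
        intro m
        have h3 : ‖v (xc n p m) - v' (xc n q m)‖ₑ ≤
            ‖u k m - v (xc n p m)‖ₑ + ‖u k m - v' (xc n q m)‖ₑ := by
          have h4 : v (xc n p m) - v' (xc n q m) =
              -(u k m - v (xc n p m)) + (u k m - v' (xc n q m)) := by abel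
          rw [h4]
          refine (enorm_add_le _ _).trans ?_
          rw [enorm_neg]
        have h5 : ∀ a b : ℝ≥0∞, (a + b) ^ 2 ≤ 4 * (a ^ 2 + b ^ 2) := by
          intro a b
          have h6 : a + b ≤ 2 * max a b := by
            rw [two_mul]
            exact add_le_add (le_max_left _ _) (le_max_right _ _)
          calc (a + b) ^ 2 ≤ (2 * max a b) ^ 2 := pow_le_pow_left' h6 2
            _ = 4 * (max a b) ^ 2 := by rw [mul_pow]; norm_num
            _ ≤ 4 * (a ^ 2 + b ^ 2) := by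
              refine mul_le_mul_right ?_ _
              rcases le_total a b with hab | hab
              · rw [max_eq_right hab]; exact le_add_self
              · rw [max_eq_left hab]; exact le_self_add
        exact (pow_le_pow_left' h3 2).trans (h5 _ _)
      have hm1 : AEMeasurable (fun m => ‖u k m - v (xc n p m)‖ₑ ^ 2) (P.μ.restrict O) :=
        ((((hu k).continuous.continuousOn.sub ha).aestronglyMeasurable
          hOo.measurableSet).enorm).pow_const 2
      calc ∫⁻ m in O, ‖v (xc n p m) - v' (xc n q m)‖ₑ ^ 2 ∂P.μ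
          ≤ ∫⁻ m in O, 4 * (‖u k m - v (xc n p m)‖ₑ ^ 2 + ‖u k m - v' (xc n q m)‖ₑ ^ 2) ∂P.μ :=
            lintegral_mono h2
        _ = 4 * (∫⁻ m in O, ‖u k m - v (xc n p m)‖ₑ ^ 2 ∂P.μ +
            ∫⁻ m in O, ‖u k m - v' (xc n q m)‖ₑ ^ 2 ∂P.μ) := by
            rw [lintegral_const_mul' _ _ (by norm_num), lintegral_add_left' hm1]
        _ ≤ _ := by
            refine mul_le_mul_right (add_le_add ?_ ?_) _
            · exact lintegral_mono_set inter_subset_left
            · exact lintegral_mono_set inter_subset_right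
    have h2 := (tendsto_chart P hu hcl h).add (tendsto_chart P hu hcl' h')
    have h3 := ENNReal.Tendsto.const_mul (a := 4) h2 (Or.inr (by norm_num))
    simp only [add_zero, mul_zero] at h3
    exact le_antisymm (ge_of_tendsto' h3 h1) zero_le
  have hae : ∀ᵐ m ∂(P.μ.restrict O), v (xc n p m) - v' (xc n q m) = 0 := by
    have h1 := (lintegral_eq_zero_iff' (((hab.aestronglyMeasurable
      hOo.measurableSet).enorm).pow_const 2)).1 h0
    filter_upwards [h1] with m hm
    simpa using hm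
  by_contra hne
  obtain ⟨-, hpos, -⟩ := cInt n N M P
  set W : Set M := O ∩ (fun m => v (xc n p m) - v' (xc n q m)) ⁻¹' {0}ᶜ with hW
  have hWo : IsOpen W := hab.isOpen_inter_preimage hOo isOpen_compl_singleton
  have hWn : W.Nonempty := ⟨x, ⟨hx, hx'⟩, fun h0 => hne (sub_eq_zero.1 h0)⟩
  have h1 : P.μ W = 0 := by
    rw [ae_restrict_iff' hOo.measurableSet] at hae
    refine measure_mono_null ?_ hae
    intro m hm hcon
    exact hm.2 (hcon hm.1)
  exact absurd h1 (ne_of_gt (hpos W hWo hWn))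

theorem rowGLU_aux (P : One n N M) (f : M → Fib N)
    (u : ℕ → M → Fib N) (hu : ∀ k, SmS n (u k))
    (hl : ∀ (p : M), ∀ z ∈ tg n p, ∃ (r : ℝ) (v : E n → Fib N), 0 < r ∧
      closure (Bx z r) ⊆ tg n p ∧ LocLim P f u p z r v) :
  ∃ U : M → Fib N,
    (∀ p, ContDiffOn ℝ ∞ (lu (𝓡∂ n) p U) (tg n p ∩ {y | 0 < y 0})) ∧
    (∀ p, ∀ y ∈ tg n p, 0 < y 0 → Lop (P.loc p) (lu (𝓡∂ n) p U) y = 0) ∧
    ∀ p, ∀ z ∈ tg n p, z 0 = 0 → ∃ r > 0, HB z r ⊆ tg n p ∧ ∃ w : E n → Fib N,
      ContDiffOn ℝ ∞ w (HB z r) ∧ (∀ y ∈ HB z r, 0 < y 0 → w y = lu (𝓡∂ n) p U y) ∧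
      ∀ y ∈ HB z r, y 0 = 0 → w y = lu (𝓡∂ n) p f y := by
  obtain ⟨hRel, hOk, hbd, hsm⟩ := cLoc n N M
  choose r v hr hcl hlim using hl
  set U : M → Fib N := fun x => v x (xc n x x) (mem_extChartAt_target x) (xc n x x) with hU
  have key : ∀ (p : M) (z : E n) (hz : z ∈ tg n p), ∀ y ∈ Bo z (r p z hz),
      v p z hz y = lu (𝓡∂ n) p U y := by
    intro p z hz y hy
    have hDt : Bo z (r p z hz) ⊆ tg n p :=
      ((bo_sub_bx z _).trans subset_closure).trans (hcl p z hz)
    set x : M := (xc n p).symm y with hx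
    have hxs : x ∈ (xc n p).source := (xc n p).map_target (hDt hy)
    have hxb : x ∉ (𝓡∂ n).boundary M := by
      intro hb
      have h := (hbd p x hxs).1 hb
      rw [hx, (xc n p).right_inv (hDt hy)] at h
      exact absurd h (ne_of_gt hy.2)
    have hx0 : 0 < (xc n x x) 0 := by
      have h1 : (0 : ℝ) ≤ (xc n x x) 0 := (hRel x).subset (mem_extChartAt_target x)
      refine lt_of_le_of_ne h1 fun h2 => hxb ((hbd x x (mem_extChartAt_source x)).2 h2.symm)
    have h1 := agree P hu (hcl p z hz) (hlim p z hz)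
      (hcl x (xc n x x) (mem_extChartAt_target x)) (hlim x (xc n x x) (mem_extChartAt_target x))
      (x := x) ⟨y, hy, rfl⟩ ⟨xc n x x, bo_self (hr _ _ _) hx0, extChartAt_to_inv (I := 𝓡∂ n) x⟩
    have h2 : xc n p x = y := by
      rw [hx, (xc n p).right_inv (hDt hy)]
    rw [h2] at h1
    exact h1
  refine ⟨U, fun p y hy => ?_, fun p y hy hy0 => ?_, fun p z hz hz0 => ?_⟩
  · have h1 : ContDiffOn ℝ ∞ (lu (𝓡∂ n) p U) (Bo y (r p y hy.1)) :=
      ((hlim p y hy.1).smooth.mono (bo_sub_bx _ _)).congr fun w hw => (key p y hy.1 w hw).symm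
    exact ((h1 y (bo_self (hr _ _ _) hy.2)).contDiffAt
      ((bo_open _ _).mem_nhds (bo_self (hr _ _ _) hy.2))).contDiffWithinAt
  · have hDr : RelOpen (Bo y (r p y hy)) :=
      CHarm_relOpen_of_open (bo_open _ _) fun w hw => le_of_lt hw.2
    rw [Lop_congr hDr (P.loc p) (fun w hw => (key p y hy w hw).symm)
      (bo_self (hr _ _ _) hy0)]
    exact (hlim p y hy).eqn y (bo_self (hr _ _ _) hy0)
  · have hsub : HB z (r p z hz) ⊆ Bx z (r p z hz) := by
      rintro y ⟨hy1, hy2⟩
      refine ⟨fun i => ?_, hy2⟩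
      rw [Metric.mem_ball, dist_eq_norm] at hy1
      refine lt_of_le_of_lt ?_ hy1
      have := PiLp.norm_apply_le (y - z) i
      simpa using this
    refine ⟨r p z hz, hr p z hz, hsub.trans (subset_closure.trans (hcl p z hz)), v p z hz,
      (hlim p z hz).smooth.mono hsub, fun y hy hy0 => key p z hz y ⟨(hsub hy).1, hy0⟩,
      fun y hy hy0 => (hlim p z hz).bd y (hsub hy) hy0⟩

end mani

theorem rowGLU : DM.RowGLU.{u} := by
  intro n N _ M _ _ _ _ _ _ _ _ P f u hu hl
  exact rowGLU_aux P f u hu hl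

end Vale.Agent.P088.H772
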