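import Vale.Agent.P088.Bdl.B11
import Vale.Agent.P088.Bdl.B12

/-!
# P088, solvability of the Dirichlet problem: the minimising sequence and its limit
-/

open Bundle Manifold MeasureTheory Set Filter Topology
open scoped ContDiff

noncomputable section

namespace Vale.Agent.P088.H772

open Vale.Agent.P088 Vale.Agent.P088.EYM

universe u

set_option linter.unusedSectionVars false

/-- completeness of `L²`, in the form of integrals -/
theorem l2_lim {α : Type*} [MeasurableSpace α] {ν : Measure α} {N : ℕ} {w : ℕ → α → Fib N}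
    (hw : ∀ k, MemLp (w k) 2 ν)
    (hc : ∀ ε > 0, ∃ k₀, ∀ k ≥ k₀, ∀ l ≥ k₀, ∫ x, ‖w k x - w l x‖ ^ 2 ∂ν ≤ ε) :
    ∃ W : α → Fib N, MemLp W 2 ν ∧ Tendsto (fun k => ∫ x, ‖w k x - W x‖ ^ 2 ∂ν) atTop (𝓝 0) := by
  have hsub : ∀ k l, ‖(hw k).toLp (w k) - (hw l).toLp (w l)‖ ^ 2 =
      ∫ x, ‖w k x - w l x‖ ^ 2 ∂ν := by
    intro k l
    rw [← MemLp.toLp_sub, crungea_norm ((hw k).sub (hw l))]
    rfl
  have hcs : CauchySeq fun k => (hw k).toLp (w k) := by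
    rw [Metric.cauchySeq_iff]
    intro ε hε
    obtain ⟨k₀, hk⟩ := hc (ε ^ 2 / 2) (by positivity)
    refine ⟨k₀, fun k hk1 l hl1 => ?_⟩
    rw [dist_eq_norm]
    have h1 := hk k hk1 l hl1
    rw [← hsub] at h1
    have h2 : ‖(hw k).toLp (w k) - (hw l).toLp (w l)‖ ^ 2 < ε ^ 2 := by
      have : 0 < ε ^ 2 := by positivity
      linarith
    exact lt_of_pow_lt_pow_left₀ 2 hε.le h2
  obtain ⟨g, hg⟩ := cauchySeq_tendsto_of_complete hcs
  refine ⟨g, Lp.memLp g, ?_⟩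
  have h1 : Tendsto (fun k => ‖(hw k).toLp (w k) - g‖ ^ 2) atTop (𝓝 0) := by
    have h2 : Tendsto (fun k => ‖(hw k).toLp (w k) - g‖) atTop (𝓝 0) := by
      rw [tendsto_iff_norm_sub_tendsto_zero] at hg
      exact hg
    have h3 := h2.pow 2
    simpa using h3
  refine h1.congr fun k => ?_
  have h2 : (hw k).toLp (w k) - g = ((hw k).sub (Lp.memLp g)).toLp (w k - (g : α → Fib N)) := by
    rw [MemLp.toLp_sub (hw k) (Lp.memLp g), Lp.toLp_coeFn g (Lp.memLp g)]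
  rw [h2, crungea_norm]
  rfl

/-- The Poincaré inequality on `M`. -/
theorem poinc : CPoinc_statement.{u} :=
  cPoinc (aPoincare aHardy) cLoc (cEnergy cInt) cInt

theorem memLp2 {n N : ℕ} [NeZero n] {M : Type u} [TopologicalSpace M]
    [ChartedSpace (EuclideanHalfSpace n) M] [IsManifold (𝓡∂ n) ∞ M] [T2Space M] [CompactSpace M]
    [MeasurableSpace M] [BorelSpace M] (P : One n N M) {φ : M → Fib N} (hφ : SmS n φ) :
    MemLp φ 2 P.μ := by
  obtain ⟨hfin, -, -⟩ := cInt n N M P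
  have hc : Continuous φ := hφ.continuous
  obtain ⟨B, hB⟩ := isCompact_univ.exists_bound_of_continuousOn hc.continuousOn
  exact MemLp.of_bound hc.aestronglyMeasurable B (Eventually.of_forall fun x => hB x trivial)

/-- The minimising sequence of the Dirichlet problem and its limit in `L²`. -/
theorem seq {n N : ℕ} [NeZero n] {M : Type u} [TopologicalSpace M]
    [ChartedSpace (EuclideanHalfSpace n) M] [IsManifold (𝓡∂ n) ∞ M] [T2Space M] [CompactSpace M]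
    [ConnectedSpace M] [MeasurableSpace M] [BorelSpace M] (P : One n N M)
    (hb : ((𝓡∂ n).boundary M).Nonempty) (f : M → Fib N) (hf : SmS n f) :
    ∃ (w : ℕ → M → Fib N) (W : M → Fib N), (∀ k, SmS n (w k)) ∧
      (∀ k, ∀ x ∈ (𝓡∂ n).boundary M, w k x = 0) ∧
      (∀ ε > 0, ∃ k₀, ∀ k ≥ k₀, ∀ l ≥ k₀, (P.E (w k - w l) (w k - w l)).re ≤ ε) ∧
      (∀ ε > 0, ∃ k₀, ∀ k ≥ k₀, ∀ l ≥ k₀, ∫ x, ‖w k x - w l x‖ ^ 2 ∂P.μ ≤ ε) ∧
      (∀ ψ : M → Fib N, SmS n ψ → (∀ x ∈ (𝓡∂ n).boundary M, ψ x = 0) →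
        Tendsto (fun k => P.E (f + w k) ψ) atTop (𝓝 0)) ∧
      AEStronglyMeasurable W P.μ ∧ Integrable (fun x => ‖W x‖ ^ 2) P.μ ∧
      Tendsto (fun k => ∫ x, ‖w k x - W x‖ ^ 2 ∂P.μ) atTop (𝓝 0) := by
  obtain ⟨f1, f2, f3, f4, f5⟩ := cForm cInt n N M P
  obtain ⟨C, hC, hCp⟩ := poinc n N M P hb
  let X := crungeaX n N M
  let l : X →ₗ[ℂ] ℂ :=
    { toFun := fun φ => -P.E f (φ : M → Fib N)
      map_add' := fun φ ψ => by
        rw [Submodule.coe_add, f1 _ _ _ hf φ.2.1 ψ.2.1]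
        ring
      map_smul' := fun a φ => by
        rw [Submodule.coe_smul, f2 a _ _ hf φ.2.1, RingHom.id_apply, smul_eq_mul]
        ring }
  have hl : ∀ φ : X, l φ = -P.E f (φ : M → Fib N) := fun _ => rfl
  obtain ⟨w, hw1, hw2⟩ := cHilb X (fun u v => P.E (u : M → Fib N) (v : M → Fib N)) l
    (P.E f f).re (fun u v w => f1 _ _ _ u.2.1 v.2.1 w.2.1)
    (fun a u v => f2 a _ _ u.2.1 v.2.1) (fun u v => f3 _ _ u.2.1 v.2.1) (fun u => f4 _ u.2.1)
    (fun u => by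
      rw [hl, norm_neg]
      exact f5 _ _ hf u.2.1)
  have hcL : ∀ ε > 0, ∃ k₀, ∀ k ≥ k₀, ∀ j ≥ k₀,
      ∫ x, ‖(w k : M → Fib N) x - (w j : M → Fib N) x‖ ^ 2 ∂P.μ ≤ ε := by
    intro ε hε
    obtain ⟨k₀, hk₀⟩ := hw1 (ε / C) (by positivity)
    refine ⟨k₀, fun k hk j hj => ?_⟩
    have h1 := hk₀ k hk j hj
    have h2 := hCp _ (w k - w j).2.1 (w k - w j).2.2
    have h3 : C * (P.E ((w k - w j : X) : M → Fib N) ((w k - w j : X) : M → Fib N)).re ≤ ε := by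
      calc _ ≤ C * (ε / C) := mul_le_mul_of_nonneg_left h1 hC.le
        _ = ε := by field_simp
    exact h2.trans h3
  obtain ⟨W, hW1, hW2⟩ := l2_lim (fun k => memLp2 P (w k).2.1) hcL
  refine ⟨fun k => (w k : M → Fib N), W, fun k => (w k).2.1, fun k => (w k).2.2, ?_, hcL, ?_,
    hW1.1, ?_, hW2⟩
  · intro ε hε
    obtain ⟨k₀, hk₀⟩ := hw1 ε hε
    exact ⟨k₀, fun k hk j hj => hk₀ k hk j hj⟩
  · intro ψ hψ hψ0
    have h1 := hw2 ⟨ψ, hψ, hψ0⟩
    rw [hl] at h1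
    have h2 : ∀ k, P.E (f + (w k : M → Fib N)) ψ = P.E f ψ + P.E (w k : M → Fib N) ψ := by
      intro k
      rw [f3 ψ _ hψ (crungea_add hf (w k).2.1), f1 _ _ _ hψ hf (w k).2.1, map_add,
        ← f3 ψ _ hψ hf, ← f3 ψ _ hψ (w k).2.1]
    simp only [h2]
    have h3 := (tendsto_const_nhds (x := P.E f ψ)).add h1
    simpa using h3
  · simpa only using hW1.integrable_norm_pow (by norm_num)

end Vale.Agent.P088.H772
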