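import Vale.Agent.P088.R2.H238.DM.Spec
import Vale.Agent.P088.R2.H772.DM.Asm
import Vale.Agent.P088.R2.H772.DM.Seq

/-!
# P088, SOLV: the rows MIN and ASM
-/

open Manifold MeasureTheory Set Filter Topology
open scoped ContDiff

noncomputable section

namespace Vale.Agent.P088.H772

open Vale.Agent.P088 Vale.Agent.P088.EYM

universe u

theorem rowASM : DM.RowASM.{u} := by
  intro n N _ M _ _ _ _ _ _ _ P f U _ h1 h2 h3
  obtain ⟨u, hu, -⟩ := asm P f U h1 h2 fun p hp =>
    h3 p _ (mem_extChartAt_target p) ((cLoc_bd p p (mem_extChartAt_source p)).1 hp)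
  exact ⟨u, hu⟩

theorem rowMIN : DM.RowMIN.{u} := by
  intro n N _ M _ _ _ _ _ _ _ _ P hb f hf
  obtain ⟨w, W, h1, h2, h3, h4, h5, -, -, -⟩ := seq P hb f hf
  refine ⟨fun k => f + w k, fun k => crungea_add hf (h1 k), fun k x hx => ?_, ?_, ?_, h5⟩
  · show f x + w k x = f x
    rw [h2 k x hx, add_zero]
  · simpa only [add_sub_add_left_eq_sub] using h3
  · simpa only [Pi.add_apply, add_sub_add_left_eq_sub] using h4

end Vale.Agent.P088.H772
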